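import Vale.Agent.Lib.P358.Compare

namespace Vale.Agent.Results.P358.GadcMonotone

open Vale.Agent.Lib.P358

/-- Monotonicity of the Holevo capacities of all tensor powers, and of the classical capacity, of
the generalized amplitude damping channel in its two transition probabilities `γ ν` and
`γ (1 - ν)`. -/
theorem result (γ ν γ' ν' : ℝ) (hγ : 0 ≤ γ) (hγ1 : γ ≤ 1) (hν : 0 ≤ ν) (hν1 : ν ≤ 1)
    (hγ' : 0 ≤ γ') (hγ1' : γ' ≤ 1) (hν' : 0 ≤ ν') (hν1' : ν' ≤ 1)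
    (h1 : γ' * ν' ≤ γ * ν) (h2 : γ' * (1 - ν') ≤ γ * (1 - ν)) :
    (∀ n : ℕ, holevoCap (tensorPower (gadc γ ν) n) ≤ holevoCap (tensorPower (gadc γ' ν') n)) ∧
    classicalCap (gadc γ ν) ≤ classicalCap (gadc γ' ν') :=
  ⟨fun n => gadc_holevoCap_le γ ν γ' ν' hγ1 hν hν1 hγ' hν' hν1' h1 h2 n,
    gadc_classicalCap_le γ ν γ' ν' hγ1 hν hν1 hγ' hν' hν1' h1 h2⟩

end Vale.Agent.Results.P358.GadcMonotone
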