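import Vale.Agent.Lib.P358.Compare

namespace Vale.Agent.Results.P358.UnitalSandwich

open Vale.Agent.Lib.P358

/-- The classical capacity of the generalized amplitude damping channel is bounded above by that
of the unital channel with damping `2 γ min(ν, 1-ν)`, below by that of the unital channel with
damping `2 γ max(ν, 1-ν)` (when this is at most `1`), and above by those of the amplitude damping
channels with parameters `(γ (1-ν), 0)` and `(γ ν, 1)`. -/
theorem result (γ ν : ℝ) (hγ : 0 ≤ γ) (hγ1 : γ ≤ 1) (hν : 0 ≤ ν) (hν1 : ν ≤ 1) :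
    classicalCap (gadc γ ν) ≤ classicalCap (gadc (2 * γ * min ν (1 - ν)) (1 / 2)) ∧
    (2 * γ * max ν (1 - ν) ≤ 1 →
      classicalCap (gadc (2 * γ * max ν (1 - ν)) (1 / 2)) ≤ classicalCap (gadc γ ν)) ∧
    classicalCap (gadc γ ν) ≤ classicalCap (gadc (γ * (1 - ν)) 0) ∧
    classicalCap (gadc γ ν) ≤ classicalCap (gadc (γ * ν) 1) := by
  have hmin1 : min ν (1 - ν) ≤ ν := min_le_left _ _
  have hmin2 : min ν (1 - ν) ≤ 1 - ν := min_le_right _ _
  have hmin0 : 0 ≤ min ν (1 - ν) := le_min hν (by linarith)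
  have hmax1 : ν ≤ max ν (1 - ν) := le_max_left _ _
  have hmax2 : 1 - ν ≤ max ν (1 - ν) := le_max_right _ _
  refine ⟨?_, ?_, ?_, ?_⟩
  · refine gadc_classicalCap_le γ ν _ (1 / 2) hγ1 hν hν1 (by positivity) (by norm_num)
      (by norm_num) ?_ ?_
    · nlinarith
    · nlinarith
  · intro hle
    refine gadc_classicalCap_le _ (1 / 2) γ ν hle (by norm_num) (by norm_num) hγ hν hν1 ?_ ?_
    · nlinarith
    · nlinarith
  · refine gadc_classicalCap_le γ ν _ 0 hγ1 hν hν1 (by nlinarith) le_rfl zero_le_one ?_ ?_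
    · nlinarith
    · nlinarith
  · refine gadc_classicalCap_le γ ν _ 1 hγ1 hν hν1 (by nlinarith) zero_le_one le_rfl ?_ ?_
    · nlinarith
    · nlinarith

end Vale.Agent.Results.P358.UnitalSandwich
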